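import Vale.Agent.P133.Gen

namespace Vale.Agent.Results.P133.OneSided

open Vale.Agent.P133

universe u

theorem result (A : Type u) [NonUnitalCStarAlgebra A] [PartialOrder A] [StarOrderedRing A] :
    (PurelyInf A → ∀ x y : A, 0 ≤ x → 0 ≤ y → ProjGen x → Strong x y) ∧
    (PurelyInf A ↔ WeaklyPurelyInf A ∧ Split A) ∧
    (WeaklyPurelyInf A → NoProj A → PurelyInf A) :=
  ⟨fun hp _ _ x0 y0 hx => strong_of hp x0 y0 hx,
    ⟨fun hp => ⟨⟨1, le_rfl, hp⟩, split_of_pi hp⟩, fun h => main h.1 h.2⟩,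
    fun hw hp => main hw (split_of hp)⟩

end Vale.Agent.Results.P133.OneSided
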