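import Vale.Agent.P133.Main

namespace Vale.Agent.Results.P133.Splitting

open Vale.Agent.P133

universe u

theorem result (A : Type u) [NonUnitalCStarAlgebra A] [PartialOrder A] [StarOrderedRing A]
    (hw : WeaklyPurelyInf A) : (Split A → PurelyInf A) ∧ (NoProj A → PurelyInf A) :=
  ⟨main hw, fun hp => main hw (split_of hp)⟩

end Vale.Agent.Results.P133.Splitting
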